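import Vale.Agent.P088.H198.E.Defs

/-!
# P088, Theorem E without collars: definitions and rows

`φ₂` is shown to be near `φ` on `Ω`; then `s` is near `σ · 1` on `Ω` and `BY.RowFIN` applies to
`σ · 1 + χ (s - σ · 1)`. The solutions are global, `Ω` has a boundary.
-/

open MeasureTheory Set Filter Topology
open scoped ContDiff Matrix

noncomputable section

namespace Vale.Agent.P088.LR.F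

open Vale.Agent.P088.LR Vale.Agent.P088.LR.B Vale.Agent.P088.LR.CF Vale.Agent.P088.LR.CC
  Vale.Agent.P088.H639

variable {n : ℕ}

/-- The base `φ² · 1` and the tensor `φ₂² t`; both equal `1` off the ball; the orthogonality holds in
`Ω`; NO condition at the boundary of `Ω`. -/
structure Fd (Ω : Set (V n)) (φ q₀ φ₂ : V n → ℝ) (t : MF n) (q : V n → ℝ) : Prop where
  ba : Ba φ q₀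
  op : IsOpen Ω
  sub : closure Ω ⊆ bal n
  p₂ : SmP φ₂
  one₂ : ∀ x ∉ bal n, φ₂ x = 1
  sm : SmM t
  sy : ∀ x, (t x).IsSymm
  off : ∀ x ∉ bal n, t x = 1
  sq : ContDiff ℝ ∞ q
  eq : ∀ x, dv t (cx φ₂) x = (q x : ℂ) * φ₂ x
  st : St2 Ω (sc (fun x => φ x ^ 2)) (fun x => φ₂ x ^ 2 • t x)

/-- Bounds. -/
structure Bs (B : ℝ) (φ q₀ φ₂ : V n → ℝ) (t : MF n) (q : V n → ℝ) : Prop where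
  one : 1 ≤ B
  b : Cl 1 B (cx φ)
  i : ∀ x, (φ x)⁻¹ ≤ B
  b₂ : Cl 1 B (cx φ₂)
  i₂ : ∀ x, (φ₂ x)⁻¹ ≤ B
  bt : ∀ i j x, |t x i j| ≤ B
  q₀ : Cl (n + 1) B (cx q₀)
  q : Cl (n + 1) B (cx q)

/-- The flux bound with constant `C₀`. -/
def FB (Ω : Set (V n)) (C₀ : ℝ) : Prop :=
  1 ≤ C₀ ∧ ∀ F : Fin n → V n → ℂ, (∀ i, ContDiff ℝ ∞ (F i)) → ∀ m : ℝ, 0 ≤ m →
    (∀ i, ∀ x ∈ frontier Ω, ‖F i x‖ ≤ m) → ‖∫ x in Ω, ∑ i, pd i (F i) x‖ ≤ C₀ * m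

/-- `∫_Ω (q - q₀) f - ∫_Ω div (f κ)`, `κ = t∇φ₂ / φ - ∇φ / φ₂`, written with `bl`. -/
def La (Ω : Set (V n)) (φ q₀ φ₂ : V n → ℝ) (t : MF n) (q : V n → ℝ) (f : V n → ℂ) : ℂ :=
  (∫ x in Ω, (((q x - q₀ x : ℝ) : ℂ) * f x - (q x : ℂ) * φ₂ x * (f x / φ x) +
    (q₀ x : ℂ) * φ x * (f x / φ₂ x))) -
    bl Ω t (fun x => f x / φ x) (cx φ₂) + bl Ω (fun _ => 1) (fun x => f x / φ₂ x) (cx φ)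

/-- The quantities which are small for large `X` and small `a`, `η`. -/
def er (X a η : ℝ) : ℝ := 1 / X + X ^ 2 * a + X * η

/-! ## Rows -/

/-- (F_GEO) balls inside `Ω` near every point of `{ρ ≥ -h}` (the norm of `V n` is the sup norm). -/
def RowGEO : Prop := ∀ {n : ℕ} (ρ : V n → ℝ), Dom ρ → ∃ C h₀ : ℝ, 1 ≤ C ∧ 0 < h₀ ∧
  ∀ h : ℝ, 0 < h → h ≤ h₀ → ∀ x, -h ≤ ρ x → ∃ y, ‖y - x‖ ≤ C * h ∧ ∀ z, ‖z - y‖ ≤ h → h ≤ ρ z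

/-- (F_FX) the flux bound; from `H924.weak_flux` with `θ(ρ / h)`. -/
def RowFX : Prop := ∀ {n : ℕ} (ρ : V n → ℝ), Dom ρ → ∃ C₀ : ℝ, FB (Om ρ) C₀

/-- (F_ID) the identity for `u = φ U`, `v = φ₂ V`; the flux of
`(φ / φ₂ - 1) V ∇U - (φ₂ / φ - 1) U t∇V` is bounded by FB. -/
def RowID : Prop := ∀ (n : ℕ) (B : ℝ), ∃ C : ℝ, 1 ≤ C ∧ ∀ (Ω : Set (V n)) (φ q₀ φ₂ : V n → ℝ)
  (t : MF n) (q : V n → ℝ) (C₀ η m : ℝ), Fd Ω φ q₀ φ₂ t q → Bs B φ q₀ φ₂ t q → FB Ω C₀ → 0 ≤ η →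
  0 ≤ m → (∀ x ∈ frontier Ω, |φ₂ x - φ x| ≤ η) → ∀ U W : V n → ℂ, ContDiff ℝ ∞ U →
  ContDiff ℝ ∞ W → (∀ x ∈ Ω, dv (fun _ => 1) U x = (q₀ x : ℂ) * U x) →
  (∀ x ∈ Ω, dv t W x = (q x : ℂ) * W x) →
  (∀ i, ∀ x ∈ frontier Ω, ‖pd i U x * W x‖ ≤ m) → (∀ i, ∀ x ∈ frontier Ω, ‖U x * pd i W x‖ ≤ m) →
  ‖La Ω φ q₀ φ₂ t q (fun x => U x * W x) + bl Ω (fun x => t x - 1) U W‖ ≤ C * C₀ * η * m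

/-- (F_LB) `La f` is bounded by the sup norm of `f` on the closure of `Ω` (integration by parts in
`bl`, flux bound); for `f` supported in `Ω` it is `∫ (q - q₀) f`. -/
def RowLB : Prop :=
  (∀ (n : ℕ) (B : ℝ), ∃ C : ℝ, 1 ≤ C ∧ ∀ (Ω : Set (V n)) (φ q₀ φ₂ : V n → ℝ) (t : MF n)
    (q : V n → ℝ) (C₀ m : ℝ), Fd Ω φ q₀ φ₂ t q → Bs B φ q₀ φ₂ t q → FB Ω C₀ → 0 ≤ m →
    ∀ f : V n → ℂ, ContDiff ℝ ∞ f → (∀ x ∈ closure Ω, ‖f x‖ ≤ m) →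
    ‖La Ω φ q₀ φ₂ t q f‖ ≤ C * C₀ * m) ∧
  ∀ {n : ℕ} (Ω : Set (V n)) (φ q₀ φ₂ : V n → ℝ) (t : MF n) (q : V n → ℝ), Fd Ω φ q₀ φ₂ t q →
    ∀ f : V n → ℂ, ContDiff ℝ ∞ f → (∀ x ∈ frontier Ω, f x = 0) →
    La Ω φ q₀ φ₂ t q f = ∫ x in Ω, ((q x - q₀ x : ℝ) : ℂ) * f x

/-- (F_LF) low frequencies in the frame `e_{i₀}`; from `RowCGC`, ID, LB as in `H925.SFD.sfd`. -/
def RowLF : Prop := ∀ (n : ℕ) (B : ℝ), ∃ C : ℝ, 1 ≤ C ∧ ∀ (i₀ : Fin n) (ξ p : V n),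
  ξ i₀ = 0 → p i₀ = 0 → nr p = 1 → ∑ j, p j * ξ j = 0 → ∀ X : ℝ, C ≤ X → 2 * nr ξ ≤ X →
  ∀ (Ω : Set (V n)) (φ q₀ φ₂ : V n → ℝ) (t : MF n) (q : V n → ℝ) (C₀ η : ℝ),
  Fd Ω φ q₀ φ₂ t q → Bs B φ q₀ φ₂ t q → FB Ω C₀ → 0 ≤ η → η ≤ 1 →
  (∀ x ∈ frontier Ω, |φ₂ x - φ x| ≤ η) → ∀ a : ℝ, 0 ≤ a → (∀ i j, Cl (n + 1) a (ent t i j)) →
  C * X * a ≤ 1 → ‖La Ω φ q₀ φ₂ t q (ex (-ξ))‖ ≤ C * C₀ * er X a η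

/-- (F_GG) all frequencies, from LF by the reflections of H952, H900/GGD. -/
def RowGG : Prop := ∀ n : ℕ, 3 ≤ n → ∀ B : ℝ, ∃ C : ℝ, 1 ≤ C ∧ ∀ (ξ : V n) (X : ℝ), C ≤ X →
  2 * nr ξ ≤ X →
  ∀ (Ω : Set (V n)) (φ q₀ φ₂ : V n → ℝ) (t : MF n) (q : V n → ℝ) (C₀ η : ℝ),
  Fd Ω φ q₀ φ₂ t q → Bs B φ q₀ φ₂ t q → FB Ω C₀ → 0 ≤ η → η ≤ 1 →
  (∀ x ∈ frontier Ω, |φ₂ x - φ x| ≤ η) → ∀ a : ℝ, 0 ≤ a → (∀ i j, Cl (n + 1) a (ent t i j)) →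
  C * X * a ≤ 1 → ‖La Ω φ q₀ φ₂ t q (ex (-ξ))‖ ≤ C * C₀ * er X a η

/-- (F_FS) Fourier series of `f` in `∫_Ω (α f + ∑ β_i ∂_i f)`. -/
def RowFS : Prop := ∀ n : ℕ, ∃ C : ℝ, 1 ≤ C ∧ ∀ (Ω : Set (V n)), IsOpen Ω → Ω ⊆ core n →
  ∀ (α : V n → ℂ) (β : Fin n → V n → ℂ) (B : ℝ), Continuous α → (∀ i, Continuous (β i)) → 0 ≤ B →
  (∀ x ∈ Ω, ‖α x‖ ≤ B) → (∀ i, ∀ x ∈ Ω, ‖β i x‖ ≤ B) → ∀ K d : ℝ, 1 ≤ K → 0 ≤ d →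
  (∀ ξ : V n, nr ξ ≤ K →
    ‖∫ x in Ω, (α x * ex (-ξ) x + ∑ i, β i x * pd i (ex (-ξ)) x)‖ ≤ d) →
  ∀ (f : V n → ℂ) (H : ℝ), ContDiff ℝ ∞ f → (∀ x ∉ core n, f x = 0) → Cl (n + 4) H f →
  ‖∫ x in Ω, (α x * f x + ∑ i, β i x * pd i f x)‖ ≤ C * H * (d + B / K)

/-- (F_LA) `La` in the form of FS, with bounded coefficients. -/
def RowLA : Prop := ∀ (n : ℕ) (B : ℝ), ∃ C : ℝ, 1 ≤ C ∧ ∀ (Ω : Set (V n)) (φ q₀ φ₂ : V n → ℝ)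
  (t : MF n) (q : V n → ℝ), Fd Ω φ q₀ φ₂ t q → Bs B φ q₀ φ₂ t q →
  ∃ (α : V n → ℂ) (β : Fin n → V n → ℂ), Continuous α ∧ (∀ i, Continuous (β i)) ∧
    (∀ x, ‖α x‖ ≤ C) ∧ (∀ i x, ‖β i x‖ ≤ C) ∧ ∀ f : V n → ℂ, ContDiff ℝ ∞ f →
    La Ω φ q₀ φ₂ t q f = ∫ x in Ω, (α x * f x + ∑ i, β i x * pd i f x)

/-- (F_QS) `q` is near `q₀` on `Ω`; from GG, FX, FS, LA, LB, GEO (bumps in the balls of GEO). -/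
def RowQS : Prop := ∀ {n : ℕ}, 3 ≤ n → ∀ ρ : V n → ℝ, Dom ρ → ∀ B δ : ℝ, 0 < δ → ∃ ε > 0,
  ∀ (φ q₀ φ₂ : V n → ℝ) (t : MF n) (q : V n → ℝ), Fd (Om ρ) φ q₀ φ₂ t q →
  Bs B φ q₀ φ₂ t q → (∀ x, ρ x = 0 → |φ₂ x - φ x| ≤ ε) → (∀ i j, Cl (n + 1) ε (ent t i j)) →
  ∀ x, 0 ≤ ρ x → |q x - q₀ x| ≤ δ

/-- (F_MP) the maximum principle. -/
def RowMP : Prop := ∀ n : ℕ, 1 ≤ n → ∀ φ q₀ : V n → ℝ, Ba φ q₀ → ∃ C : ℝ, 1 ≤ C ∧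
  ∀ Ω : Set (V n), IsOpen Ω → closure Ω ⊆ bal n → ∀ f : V n → ℝ, ContDiff ℝ ∞ f → ∀ b : ℝ, 0 ≤ b →
  (∀ x ∈ Ω, ‖gf φ f x‖ ≤ b) → (∀ x ∈ frontier Ω, |f x| ≤ b) → ∀ x ∈ Ω, |f x| ≤ C * b

/-- (F_SM) `φ₂` is near `φ` on `Ω`; from QS, MP (`f = (φ₂ - φ) / φ`, the algebra of D_EN). -/
def RowSM : Prop := ∀ {n : ℕ}, 3 ≤ n → ∀ ρ : V n → ℝ, Dom ρ → ∀ φ q₀ : V n → ℝ, Ba φ q₀ →
  ∀ B δ : ℝ, 0 < δ → ∃ ε > 0, ∀ (φ₂ : V n → ℝ) (t : MF n) (q : V n → ℝ),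
  Fd (Om ρ) φ q₀ φ₂ t q → Bs B φ q₀ φ₂ t q → Cl 2 B (cx φ₂) →
  (∀ x, ρ x = 0 → |φ₂ x - φ x| ≤ ε) → (∀ i j, Cl (n + 1) ε (ent t i j)) →
  ∀ x, 0 ≤ ρ x → |φ₂ x - φ x| ≤ δ

/-- (F_EX) interpolation up to the boundary and cut-off outside; from GEO, `RowINC` (on the balls of
GEO, `h` fixed) and Taylor. -/
def RowEX : Prop := ∀ {n : ℕ} (ρ : V n → ℝ), Dom ρ → ∀ (k : ℕ) (B : ℕ → ℝ) (δ : ℝ), 0 < δ →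
  ∃ (K : ℕ) (η : ℝ) (χ : V n → ℝ), 0 < η ∧ ContDiff ℝ ∞ χ ∧ (∀ x, 0 ≤ χ x) ∧ (∀ x, χ x ≤ 1) ∧
  (∀ x, 0 ≤ ρ x → χ x = 1) ∧ (∀ x, ρ x = -1 → χ x = 0) ∧
  ∀ h : V n → ℝ, ContDiff ℝ ∞ h → E.Cb K B h → (∀ x, 0 ≤ ρ x → |h x| ≤ η) →
  Cl k δ (fun x => χ x * h x)

/-- (F_TOP) from `E.RowCZ`, `E.RowDEC`, `CD.RowQBD`, `RowINC`, `RowBAC`, SM, EX, `BY.RowFIN` and
`H639.st2_of_SE`: `s' = 1 + χ (s - 1)` (`χ` of EX), `(φ₂, t₂)` of `s'` by DEC. -/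
def RowTOPF : Prop := E.RowCZ → E.RowDEC → CD.RowQBD → RowINC → RowSM → RowEX → BY.RowFIN →
  E.RowFIN

end Vale.Agent.P088.LR.F
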